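import Vale.Agent.P207.N7.H58.Pic
import Vale.Agent.P207.N4.H77.Aff1

/-!
# P207, all dimensions: the norm of the linear flow

`RateP`: if `a ≤ U ≤ b` then `e^{at} |q| ≤ |P_t q| ≤ e^{bt} |q|` for `t ≥ 0`.
-/

open Set Filter Topology Metric MeasureTheory
open scoped ContDiff

set_option linter.unusedSectionVars false

noncomputable section

namespace Vale.Agent.P207.N4.Y.H832

open Vale.Agent.P207.N3

section ode

variable {E : Type*} [NormedAddCommGroup E] [InnerProductSpace ℝ E] [CompleteSpace E]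

/-- the inverse of a solution of `A' = - A U` -/
theorem hasDerivAt_inv {A : ℝ → E →L[ℝ] E} {U : ℝ → E →L[ℝ] E} {P : ℝ → E ≃L[ℝ] E}
    (hP : ∀ t, ((P t).symm : E →L[ℝ] E) = A t) {t : ℝ} (hA : HasDerivAt A (-(A t ∘L U t)) t) (q : E) :
    HasDerivAt (fun s => P s q) (U t (P t q)) t := by
  have hi : ∀ s, Ring.inverse (A s) = (P s : E →L[ℝ] E) := by
    intro s
    have h1 : (A s) * (P s : E →L[ℝ] E) = 1 := by
      rw [← hP s]; ext v; simp
    have h2 : (P s : E →L[ℝ] E) * (A s) = 1 := by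
      rw [← hP s]; ext v; simp
    exact Ring.inverse_unit ⟨A s, (P s : E →L[ℝ] E), h1, h2⟩
  let u : (E →L[ℝ] E)ˣ := ⟨A t, (P t : E →L[ℝ] E),
    (by rw [← hP t]; ext v; simp), (by rw [← hP t]; ext v; simp)⟩
  have hu := (hasFDerivAt_ringInverse (𝕜 := ℝ) u)
  have h1 := hu.comp_hasDerivAt (f := A) t hA
  have h2 : HasDerivAt (fun s => Ring.inverse (A s) q) (U t (P t q)) t := by
    have h3 := h1.clm_apply (hasDerivAt_const t q)
    refine h3.congr_deriv ?_
    have h4 : ∀ v, (P t) (A t v) = v := by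
      intro v
      rw [← hP t]
      simp
    simp [u, ContinuousLinearMap.mulLeftRight_apply, h4]
  refine h2.congr_of_eventuallyEq (Eventually.of_forall fun s => ?_)
  show P s q = Ring.inverse (A s) q
  rw [hi s]
  rfl

/-- `p' = U p`, `a ≤ U ≤ b` -/
theorem norm_rate {p : ℝ → E} {U : ℝ → E →L[ℝ] E} {a b : ℝ}
    (hp : ∀ t, HasDerivAt p (U t (p t)) t) (hlo : ∀ t v, a * ‖v‖ ^ 2 ≤ inner ℝ (U t v) v)
    (hhi : ∀ t v, inner ℝ (U t v) v ≤ b * ‖v‖ ^ 2) {s t : ℝ} (hst : s ≤ t) :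
    Real.exp (a * (t - s)) * ‖p s‖ ≤ ‖p t‖ ∧ ‖p t‖ ≤ Real.exp (b * (t - s)) * ‖p s‖ := by
  have hf : ∀ r, HasDerivAt (fun r => ‖p r‖ ^ 2) (2 * inner ℝ (U r (p r)) (p r)) r := by
    intro r
    have h := (hp r).norm_sq
    rw [real_inner_comm]
    exact h
  have hexp : ∀ k r : ℝ, HasDerivAt (fun r : ℝ => Real.exp (k * r)) (Real.exp (k * r) * k) r := by
    intro k r
    have := ((hasDerivAt_id r).const_mul k).exp
    simpa using this
  have hd : ∀ k r : ℝ, HasDerivAt (fun r => ‖p r‖ ^ 2 * Real.exp (k * r))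
      ((2 * inner ℝ (U r (p r)) (p r) + k * ‖p r‖ ^ 2) * Real.exp (k * r)) r := by
    intro k r
    refine ((hf r).mul (hexp k r)).congr_deriv ?_
    ring
  have hmono : Monotone fun r => ‖p r‖ ^ 2 * Real.exp (-(2 * a) * r) := by
    refine monotone_of_deriv_nonneg (fun r => (hd _ r).differentiableAt) fun r => ?_
    rw [(hd _ r).deriv]
    have := hlo r (p r)
    have h2 := Real.exp_pos (-(2 * a) * r)
    apply mul_nonneg _ h2.le
    linarith
  have hanti : Antitone fun r => ‖p r‖ ^ 2 * Real.exp (-(2 * b) * r) := by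
    refine antitone_of_deriv_nonpos (fun r => (hd _ r).differentiableAt) fun r => ?_
    rw [(hd _ r).deriv]
    have := hhi r (p r)
    have h2 := Real.exp_pos (-(2 * b) * r)
    apply mul_nonpos_of_nonpos_of_nonneg _ h2.le
    linarith
  have h1 := hmono hst
  have h2 := hanti hst
  simp only at h1 h2
  have key : ∀ k : ℝ, Real.exp (k * (t - s)) ^ 2 * Real.exp (-(2 * k) * t)
      = Real.exp (-(2 * k) * s) := by
    intro k
    rw [sq, ← Real.exp_add, ← Real.exp_add]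
    congr 1
    ring
  constructor
  · refine le_of_sq_le_sq ?_ (norm_nonneg _)
    rw [mul_pow]
    refine le_of_mul_le_mul_right ?_ (Real.exp_pos (-(2 * a) * t))
    calc Real.exp (a * (t - s)) ^ 2 * ‖p s‖ ^ 2 * Real.exp (-(2 * a) * t)
        = ‖p s‖ ^ 2 * (Real.exp (a * (t - s)) ^ 2 * Real.exp (-(2 * a) * t)) := by ring
      _ = ‖p s‖ ^ 2 * Real.exp (-(2 * a) * s) := by rw [key]
      _ ≤ _ := h1
  · refine le_of_sq_le_sq ?_ (by positivity)
    rw [mul_pow]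
    refine le_of_mul_le_mul_right ?_ (Real.exp_pos (-(2 * b) * t))
    calc ‖p t‖ ^ 2 * Real.exp (-(2 * b) * t) ≤ ‖p s‖ ^ 2 * Real.exp (-(2 * b) * s) := h2
      _ = ‖p s‖ ^ 2 * (Real.exp (b * (t - s)) ^ 2 * Real.exp (-(2 * b) * t)) := by rw [key]
      _ = _ := by ring

end ode

variable [Dim]

variable {Γ X B : Type} [Group Γ] [MetricSpace X] [ProperSpace X] [MulAction Γ X]
  [IsIsometricSMul Γ X] [TopologicalSpace B] [CompactSpace B] [T2Space B] [MulAction Γ B]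
  [ContinuousConstSMul Γ B] {L : Leaf Γ X B}

/-- the flow in the affine charts, for `a ≤ U ≤ b` -/
theorem rate_aff (M : Metr L) (F : Aff L) {a b : ℝ} (hlo : ∀ x v, a * ‖v‖ ^ 2 ≤ inner ℝ (M.U x v) v)
    (hhi : ∀ x v, inner ℝ (M.U x v) v ≤ b * ‖v‖ ^ 2) (t : ℝ) (ht : 0 ≤ t) (x : X) (q : E2) :
    Real.exp (a * t) * ‖q‖ ≤ ‖F.P t x q‖ ∧ ‖F.P t x q‖ ≤ Real.exp (b * t) * ‖q‖ := by
  have h0 : F.P 0 x q = q := by
    have h1 := F.flow 0 x q
    rw [L.φ_zero] at h1
    rw [← F.ch_pt x (F.P 0 x q), h1, F.ch_pt]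
  have hp : ∀ t, HasDerivAt (fun s => F.P s x q) (M.U (L.φ t x) (F.P t x q)) t := fun t =>
    hasDerivAt_inv (U := fun s => M.U (L.φ s x)) (fun s => F.P_fderiv s x) (M.jac x t) q
  have h := norm_rate (U := fun s => M.U (L.φ s x)) hp (fun s => hlo _) (fun s => hhi _) ht
  simp only [h0, sub_zero] at h
  exact h

variable [MeasurableSpace B] [BorelSpace B] {V : Type}
  [NormedAddCommGroup V] [NormedSpace ℝ V] [FiniteDimensional ℝ V]

/-- the linear flow is the derivative of the flow on the leaf -/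
theorem P_eq (F : Aff L) (t : ℝ) (x : X) :
    (F.P t x : E2 →L[ℝ] E2) = fderiv ℝ (L.τ x (L.φ t x)) 0 := by
  have h1 : ((F.P t x).symm : E2 →L[ℝ] E2) = ((H77.De L t x).symm : E2 →L[ℝ] E2) := by
    rw [H77.De_symm, F.P_fderiv t x]
    unfold H77.Dt
    rw [L.φ_neg]
  have h2 : (F.P t x).symm = (H77.De L t x).symm :=
    ContinuousLinearEquiv.ext (funext fun v => congrArg (fun A : E2 →L[ℝ] E2 => A v) h1)
  have h3 : F.P t x = H77.De L t x := by
    rw [← ContinuousLinearEquiv.symm_symm (F.P t x), h2, ContinuousLinearEquiv.symm_symm]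
  rw [h3]
  rfl

theorem sg_nonneg (P : Pic L V) {t : ℝ} (ht : 0 ≤ t) (x : X) :
    0 ≤ Clock.sg L P.Ra.c t x := by
  unfold Clock.sg
  exact intervalIntegral.integral_nonneg ht fun s _ => P.Ra.c₀_pos.le.trans (P.Ra.c_lo _)

/-- **(RATE)** -/
theorem rateP (P : Pic L V) : P.RateP := fun t ht x q => by
  have h := P.Ra.rate t ht x q
  rw [← P_eq P.Af t x] at h
  have h0 : 0 ≤ Clock.sg L P.Ra.c t x := sg_nonneg P (P.Ra.T_pos.le.trans ht) x
  have h1 : P.Ra.a * Clock.sg L P.Ra.c t x ≤ (P.Ra.a + P.Ra.sl) * Clock.sg L P.Ra.c t x :=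
    mul_le_mul_of_nonneg_right (by linarith [P.Ra.sl_pos]) h0
  have h2 : (P.Ra.b - P.Ra.sl) * Clock.sg L P.Ra.c t x ≤ P.Ra.b * Clock.sg L P.Ra.c t x :=
    mul_le_mul_of_nonneg_right (by linarith [P.Ra.sl_pos]) h0
  exact ⟨(mul_le_mul_of_nonneg_right (Real.exp_le_exp.2 h1) (norm_nonneg q)).trans h.1,
    h.2.trans (mul_le_mul_of_nonneg_right (Real.exp_le_exp.2 h2) (norm_nonneg q))⟩

end Vale.Agent.P207.N4.Y.H832
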