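import Vale.Agent.P207.N7.H58.PicG
import Vale.Agent.P207.N7.H547.AffLemA
import Vale.Agent.P207.N4.H832.Angle
import Vale.Agent.P207.H734.H.AngV
import Vale.Agent.P207.N4.H106.AngC

/-!
# P207, all dimensions: the rates of the angle, over the picture

`ang_r` : forward, both sides; `ang_b` : backward, as long as the bound is small. The rates are those
of the flow after the time `T`, with the clock (`Rates`), by the vector equation of the angle (734)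
and the comparison on blocks (517), clock version.
-/

open Set Filter Topology Metric MeasureTheory
open scoped ContDiff

set_option linter.unusedSectionVars false

noncomputable section

namespace Vale.Agent.P207.N4.Y.H832

open Vale.Agent.P207.N4.H832

open Vale.Agent.P207.N3

/-- the equation `c' = k (1 - c²)`, `k ≤ b`, backwards -/
theorem scalar_back {c c' : ℝ → ℝ} {b : ℝ} (hb : 0 ≤ b) (hc : ∀ s, HasDerivAt c (c' s) s)
    (hhi : ∀ s, c' s ≤ b * (1 - c s ^ 2)) (hle : ∀ s, c s ^ 2 ≤ 1) (h0 : 0 < c 0) {s : ℝ}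
    (hs : 0 ≤ s) (hsm : Real.exp (2 * b * s) * (1 - c 0 ^ 2) < 1) :
    0 < c (-s) ∧ 1 - c (-s) ^ 2 ≤ 4 * (Real.exp (2 * b * s) * (1 - c 0 ^ 2)) := by
  have hle1 : ∀ s, c s ≤ 1 := fun s => by nlinarith [hle s]
  have hge1 : ∀ s, -1 ≤ c s := fun s => by nlinarith [hle s]
  have hexp : ∀ k s : ℝ, HasDerivAt (fun s : ℝ => Real.exp (k * s)) (Real.exp (k * s) * k) s := by
    intro k s
    have := ((hasDerivAt_id s).const_mul k).exp
    simpa using this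
  -- `c > -1`
  have hpos : ∀ r, r ≤ 0 → 0 < 1 + c r := by
    intro r hr
    have hA : Antitone fun r => (1 + c r) * Real.exp (-(2 * b) * r) := by
      have hd : ∀ r, HasDerivAt (fun r => (1 + c r) * Real.exp (-(2 * b) * r))
          (c' r * Real.exp (-(2 * b) * r) + (1 + c r) * (Real.exp (-(2 * b) * r) * -(2 * b))) r :=
        fun r => ((hc r).const_add 1).mul (hexp _ r)
      refine antitone_of_deriv_nonpos (fun r => (hd r).differentiableAt) fun r => ?_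
      rw [(hd r).deriv]
      have h1 := hhi r
      have h2 := Real.exp_pos (-(2 * b) * r)
      have h3 : c' r ≤ 2 * b * (1 + c r) := by
        have h4 : 0 ≤ (1 + c r) * (1 + c r) := mul_self_nonneg _
        nlinarith [mul_nonneg hb h4]
      nlinarith
    have h1 := hA hr
    simp only [mul_zero, Real.exp_zero, mul_one] at h1
    have h2 := Real.exp_pos (-(2 * b) * r)
    by_contra h3
    push Not at h3
    have h4 : (1 + c r) * Real.exp (-(2 * b) * r) ≤ 0 := mul_nonpos_of_nonpos_of_nonneg h3 h2.le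
    linarith
  set w : ℝ → ℝ := fun s => (1 - c s) / (1 + c s) with hw
  have hwd : ∀ s, s ≤ 0 → HasDerivAt w (-(2 * c' s) / (1 + c s) ^ 2) s := by
    intro s hs
    have h2 := ((hc s).const_sub 1).div ((hc s).const_add 1) (hpos s hs).ne'
    refine h2.congr_deriv ?_
    congr 1
    ring
  have hw1 : ∀ s, s ≤ 0 → w s * (1 + c s) ^ 2 = 1 - c s ^ 2 := by
    intro s hs
    have h1 : 1 + c s ≠ 0 := (hpos s hs).ne'
    rw [hw]
    field_simp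
    ring
  have hd2 : ∀ s, s ≤ 0 → -(2 * b) * w s ≤ -(2 * c' s) / (1 + c s) ^ 2 := by
    intro s hs
    have h1 : 0 < (1 + c s) ^ 2 := by
      have := hpos s hs
      positivity
    rw [le_div_iff₀ h1, mul_assoc, hw1 s hs]
    linarith [hhi s]
  have hM : MonotoneOn (fun s => w s * Real.exp (2 * b * s)) (Iic 0) := by
    refine monotoneOn_of_deriv_nonneg (convex_Iic 0)
      (fun s hs => ((hwd s hs).mul (hexp (2 * b) s)).continuousAt.continuousWithinAt)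
      (fun s hs => ?_) fun s hs => ?_
    · rw [interior_Iic] at hs
      exact ((hwd s hs.le).mul (hexp (2 * b) s)).differentiableAt.differentiableWithinAt
    · rw [interior_Iic] at hs
      have h1 := ((hwd s hs.le).mul (hexp (2 * b) s)).deriv
      rw [show (fun s => w s * Real.exp (2 * b * s)) = w * fun s => Real.exp (2 * b * s) from rfl,
        h1]
      have h2 := hd2 s hs.le
      have h3 := Real.exp_pos (2 * b * s)
      nlinarith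
  have h1 := hM (mem_Iic.2 (by linarith : -s ≤ 0)) (mem_Iic.2 le_rfl) (by linarith : -s ≤ 0)
  simp only [mul_zero, Real.exp_zero, mul_one] at h1
  have hw0 : w 0 ≤ 1 - c 0 ^ 2 := by
    have h3 : 0 ≤ w 0 := div_nonneg (by linarith [hle1 0]) (by linarith)
    rw [← hw1 0 le_rfl]
    nlinarith [mul_nonneg h3 h0.le, mul_nonneg (mul_nonneg h3 h0.le) h0.le]
  have h2 : w (-s) ≤ Real.exp (2 * b * s) * (1 - c 0 ^ 2) := by
    have h3 : Real.exp (2 * b * s) * Real.exp (2 * b * -s) = 1 := by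
      rw [← Real.exp_add]
      simp
    have h4 : w (-s) = Real.exp (2 * b * s) * (w (-s) * Real.exp (2 * b * -s)) := by
      rw [mul_left_comm, h3, mul_one]
    rw [h4]
    exact mul_le_mul_of_nonneg_left (h1.trans hw0) (Real.exp_pos _).le
  have h5 := hpos (-s) (by linarith)
  have h6 : w (-s) * (1 + c (-s)) = 1 - c (-s) := by
    rw [hw]
    field_simp
  constructor
  · have h7 : w (-s) < 1 := h2.trans_lt hsm
    nlinarith
  · rw [← hw1 (-s) (by linarith)]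
    have h8 : (1 + c (-s)) ^ 2 ≤ 4 := by nlinarith [hle1 (-s)]
    have h9 : 0 ≤ w (-s) := div_nonneg (by linarith [hle1 (-s)]) h5.le
    nlinarith [mul_le_mul_of_nonneg_left h8 h9]

variable [Dim]

open Vale.Agent.P207.N4.H76 (pk tl e0 sg)
open Vale.Agent.P207.N4.H722 (GeoIn)

variable {Γ X B : Type} [Group Γ] [MetricSpace X] [ProperSpace X] [MulAction Γ X]
  [IsIsometricSMul Γ X] [TopologicalSpace B] [CompactSpace B] [T2Space B] [MulAction Γ B]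
  [ContinuousConstSMul Γ B] {L : Leaf Γ X B} {V : Type} [NormedAddCommGroup V] [NormedSpace ℝ V]
  [FiniteDimensional ℝ V]

section geo

variable {I : GeoIn L V} {U : X → E2 →L[ℝ] E2} {Gam : V → V →L[ℝ] V →L[ℝ] V} (hC : Cov I U Gam)

include hC in
/-- the backward rate of the tangential part -/
theorem Cov.tl_back {b : ℝ} (hb : 0 ≤ b) (hhi : ∀ x v, inner ℝ (U x v) v ≤ b * ‖v‖ ^ 2) {x : X}
    {ξ : B} (h0 : 0 < ca I x ξ) {s : ℝ} (hs : 0 ≤ s)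
    (hsm : Real.exp (b * s) * ‖tl (kap I x ξ)‖ < 1) : 0 < ca I (L.φ (-s) x) ξ ∧
      ‖tl (kap I (L.φ (-s) x) ξ)‖ ≤ 2 * Real.exp (b * s) * ‖tl (kap I x ξ)‖ := by
  choose y v hv hd using fun s => hC.hasDerivAt_ca x ξ s
  have key : Real.exp (2 * b * s) = Real.exp (b * s) ^ 2 := by
    rw [← Real.exp_nat_mul]
    congr 1
    push_cast
    ring
  have e2 : 1 - ca I x ξ ^ 2 = ‖tl (kap I x ξ)‖ ^ 2 := by linarith [ca_sq I x ξ]
  have e1 : 1 - ca I (L.φ (-s) x) ξ ^ 2 = ‖tl (kap I (L.φ (-s) x) ξ)‖ ^ 2 := by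
    linarith [ca_sq I (L.φ (-s) x) ξ]
  have hp : 0 ≤ Real.exp (b * s) * ‖tl (kap I x ξ)‖ := by positivity
  have h := scalar_back (c := fun s => ca I (L.φ s x) ξ) (b := b) hb hd
    (fun s => by rw [← hv s]; exact hhi _ _)
    (fun s => ca_sq_le I _ ξ) (by simp only [L.φ_zero]; exact h0) hs
    (by
      simp only [L.φ_zero]
      rw [key, e2, ← mul_pow]
      exact pow_lt_one₀ hp hsm two_ne_zero)
  simp only [L.φ_zero] at h
  rw [key, e2, e1, ← mul_pow] at h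
  refine ⟨h.1, ?_⟩
  have h2 : 4 * (Real.exp (b * s) * ‖tl (kap I x ξ)‖) ^ 2 =
      (2 * Real.exp (b * s) * ‖tl (kap I x ξ)‖) ^ 2 := by ring
  rw [h2] at h
  exact (pow_le_pow_iff_left₀ (norm_nonneg _) (by positivity) two_ne_zero).1 h.2

theorem cov_of {I : GeoIn L V} {U : X → E2 →L[ℝ] E2} (C : H618.Conn I U) : Cov I U C.Gam :=
  ⟨C.E_deriv, C.core⟩

/-- the side of the disc is the sign of the cosine -/
theorem nu_pos_iff (I : GeoIn L V) (x : X) (ξ : B) : 0 < H862.nu I x ξ 0 ↔ 0 < ca I x ξ := by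
  rw [H862.nu_pos_iff I x ξ (H862.zero_mem I), H862.disc_zero]
  have hr := I.r₀_pos.ne'
  have h1 : I.vel ξ (I.S.ft x) =
      H862.DA I x 0 (kap I x ξ 0, I.r₀⁻¹ • tl (kap I x ξ)) := by
    rw [H862.DA_zero, smul_smul, mul_inv_cancel₀ hr, one_smul, H76.pk_tl, E_kap]
  rw [h1, H862.al_DA I x (H862.zero_mem I)]
  rfl

end geo

section pic

variable [MeasurableSpace B] [BorelSpace B]

/-- the gradient of the generating function at the centre -/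
theorem Pic.gr_zero (P : Pic L V) (x : X) (ξ : B) :
    P.gr x ξ 0 = P.Af.c⁻¹ • gradient (P.Bu.be x ξ) 0 := by
  have hJ : ∀ ζ, DifferentiableAt ℝ (P.Bu.be x ζ) 0 := fun ζ =>
    P.Bu.be_jc.differentiableAt (p := ((x, ζ), (0 : E2))) ⟨mem_univ _, mem_ball_self (by norm_num)⟩
  have hd : DifferentiableAt ℝ (P.dsc x) 0 := P.Af.dsc_diff (P.Af.zero_dT x)
  have hd0 : P.dsc x 0 = 0 := P.Af.dsc_zero x
  have h1 : ∀ ζ, HasGradientAt (P.bq x ζ) (P.Af.c⁻¹ • gradient (P.Bu.be x ζ) 0) 0 := by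
    intro ζ
    have h2 : HasFDerivAt (P.Bu.be x ζ) (fderiv ℝ (P.Bu.be x ζ) 0) (P.dsc x 0) := by
      rw [hd0]
      exact (hJ ζ).hasFDerivAt
    have h3 := h2.comp (0 : E2) hd.hasFDerivAt
    have h4 : fderiv ℝ (P.dsc x) 0 = P.Af.c⁻¹ • ContinuousLinearMap.id ℝ E2 :=
      P.Af.der_dsc_zero x
    rw [hasGradientAt_iff_hasFDerivAt]
    refine h3.congr_fderiv ?_
    rw [h4]
    ext v
    have h5 := (hJ ζ).hasGradientAt.hasFDerivAt.fderiv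
    rw [h5]
    simp
  have h6 : HasGradientAt (P.dl x ξ) (P.Af.c⁻¹ • gradient (P.Bu.be x ξ) 0
      - P.Af.c⁻¹ • gradient (P.Bu.be x (L.em x)) 0) 0 := by
    have h7 := (h1 ξ).hasFDerivAt.sub (h1 (L.em x)).hasFDerivAt
    rw [← map_sub] at h7
    exact h7
  rw [P.Bu.be_crit, smul_zero, sub_zero] at h6
  exact h6.gradient

/-- the gradient of the generating function at the centre, and the side -/
theorem gr_nu (P : PicG L V) (x : X) (ξ : B) :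
    ‖P.gr x ξ 0‖ = P.Af.c⁻¹ * P.S.I.r₀ * ‖tl (kap P.S.I x ξ)‖ ∧
      (0 < P.Bu.nu x ξ 0 ↔ 0 < ca P.S.I x ξ) := by
  have hc := P.Af.c_pos
  have hr := P.S.I.r₀_pos
  have hbe : P.Bu.be = H265.be P.S.I := by rw [P.Bu_eq]; rfl
  have hnu : P.Bu.nu = H862.nu P.S.I := by rw [P.Bu_eq]; rfl
  refine ⟨?_, by rw [hnu]; exact nu_pos_iff P.S.I x ξ⟩
  rw [Pic.gr_zero P.toPic x ξ]
  have h1 : gradient (P.Bu.be x ξ) 0 = P.S.I.r₀ • tl (kap P.S.I x ξ) := by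
    rw [hbe]
    exact (hasGradientAt_disc P.S.I x ξ).gradient
  rw [h1, norm_smul, norm_smul, Real.norm_of_nonneg (inv_pos.2 hc).le, Real.norm_of_nonneg hr.le,
    mul_assoc]

/-- the rates of the tangential part of the directions, forward -/
def TlR (P : PicG L V) : Prop := ∃ C, 1 ≤ C ∧ ∀ x ξ, 0 < ca P.S.I x ξ → ∀ s, 0 ≤ s →
    0 < ca P.S.I (L.φ s x) ξ ∧
    ‖tl (kap P.S.I (L.φ s x) ξ)‖ ≤ C * Real.exp (-(P.Ra.a * P.sg s x)) * ‖tl (kap P.S.I x ξ)‖ ∧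
    ‖tl (kap P.S.I x ξ)‖ ≤ C * Real.exp (P.Ra.b * P.sg s x) * ‖tl (kap P.S.I (L.φ s x) ξ)‖

/-- the rates of the tangential part of the directions, backward -/
def TlB (P : PicG L V) : Prop := ∃ C δ, 1 ≤ C ∧ 0 < δ ∧ ∀ x ξ, 0 < ca P.S.I x ξ → ∀ s, 0 ≤ s →
    Real.exp (P.Ra.b * P.sg s (L.φ (-s) x)) * ‖tl (kap P.S.I x ξ)‖ ≤ δ →
    0 < ca P.S.I (L.φ (-s) x) ξ ∧
    ‖tl (kap P.S.I (L.φ (-s) x) ξ)‖ ≤ C * Real.exp (P.Ra.b * P.sg s (L.φ (-s) x)) * ‖tl (kap P.S.I x ξ)‖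

/-- **the rate of the angle, forward** (`AngR` of 469) -/
theorem ang_r_of (P : PicG L V) (hR : TlR P) : ∃ C, 1 ≤ C ∧ ∀ x ξ, 0 < P.Bu.nu x ξ 0 → ∀ t,
    0 ≤ t → 0 < P.Bu.nu (L.φ t x) ξ 0 ∧
    ‖P.gr (L.φ t x) ξ 0‖ ≤ C * Real.exp (-(P.Ra.a * P.sg t x)) * ‖P.gr x ξ 0‖ ∧
    ‖P.gr x ξ 0‖ ≤ C * Real.exp (P.Ra.b * P.sg t x) * ‖P.gr (L.φ t x) ξ 0‖ := by
  obtain ⟨C, hC, hR⟩ := hR
  refine ⟨C, hC, fun x ξ h0 t ht => ?_⟩
  obtain ⟨g1, n1⟩ := gr_nu P x ξ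
  obtain ⟨g2, n2⟩ := gr_nu P (L.φ t x) ξ
  obtain ⟨h1, h2, h3⟩ := hR x ξ (n1.1 h0) t ht
  have hk : 0 ≤ P.Af.c⁻¹ * P.S.I.r₀ := by
    have hc := P.Af.c_pos
    have hr := P.S.I.r₀_pos
    positivity
  refine ⟨n2.2 h1, ?_, ?_⟩
  · rw [g1, g2]
    have := mul_le_mul_of_nonneg_left h2 hk
    linarith
  · rw [g1, g2]
    have := mul_le_mul_of_nonneg_left h3 hk
    linarith

/-- **the rate of the angle, backward** (`AngB` of 790) -/
theorem ang_b_of (P : PicG L V) (hB : TlB P) (ε₀ : ℝ) : ∃ C, 1 ≤ C ∧ ∀ x ξ s, 0 ≤ s →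
    P.Nr ε₀ x ξ → C * Real.exp (P.Ra.b * P.sg s (L.φ (-s) x)) * ‖P.gr x ξ 0‖ ≤ ε₀ →
    P.Nr ε₀ (L.φ (-s) x) ξ ∧
      ‖P.gr (L.φ (-s) x) ξ 0‖ ≤ C * Real.exp (P.Ra.b * P.sg s (L.φ (-s) x)) * ‖P.gr x ξ 0‖ := by
  obtain ⟨C₁, δ, hC₁, hδ, hB⟩ := hB
  have hc := P.Af.c_pos
  have hr := P.S.I.r₀_pos
  set k : ℝ := P.Af.c⁻¹ * P.S.I.r₀ with hk
  have hk0 : 0 < k := by positivity
  have hkδ : 0 < k * δ := by positivity
  refine ⟨max C₁ (ε₀ / (k * δ)), le_trans hC₁ (le_max_left _ _), fun x ξ s hs h0 hsm => ?_⟩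
  set C : ℝ := max C₁ (ε₀ / (k * δ)) with hC
  have hC1 : C₁ ≤ C := le_max_left _ _
  have hCe : ε₀ / (k * δ) ≤ C := le_max_right _ _
  have hCpos : 0 < C := by linarith
  obtain ⟨g1, n1⟩ := gr_nu P x ξ
  obtain ⟨g2, n2⟩ := gr_nu P (L.φ (-s) x) ξ
  rw [← hk] at g1 g2
  have hlt : Real.exp (P.Ra.b * P.sg s (L.φ (-s) x)) * ‖tl (kap P.S.I x ξ)‖ ≤ δ := by
    rw [g1] at hsm
    have h1 : C * k * (Real.exp (P.Ra.b * P.sg s (L.φ (-s) x)) * ‖tl (kap P.S.I x ξ)‖) ≤ C * k * δ := by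
      calc C * k * (Real.exp (P.Ra.b * P.sg s (L.φ (-s) x)) * ‖tl (kap P.S.I x ξ)‖)
          = C * Real.exp (P.Ra.b * P.sg s (L.φ (-s) x)) * (k * ‖tl (kap P.S.I x ξ)‖) := by ring
        _ ≤ ε₀ := hsm
        _ = ε₀ / (k * δ) * (k * δ) := by field_simp
        _ ≤ C * (k * δ) := mul_le_mul_of_nonneg_right hCe hkδ.le
        _ = C * k * δ := by ring
    exact le_of_mul_le_mul_left h1 (by positivity)
  obtain ⟨h1, h2⟩ := hB x ξ (n1.1 h0.1) s hs hlt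
  have h3 : ‖P.gr (L.φ (-s) x) ξ 0‖ ≤ C * Real.exp (P.Ra.b * P.sg s (L.φ (-s) x)) * ‖P.gr x ξ 0‖ := by
    rw [g1, g2]
    calc k * ‖tl (kap P.S.I (L.φ (-s) x) ξ)‖
        ≤ k * (C₁ * Real.exp (P.Ra.b * P.sg s (L.φ (-s) x)) * ‖tl (kap P.S.I x ξ)‖) := by gcongr
      _ = C₁ * Real.exp (P.Ra.b * P.sg s (L.φ (-s) x)) * (k * ‖tl (kap P.S.I x ξ)‖) := by ring
      _ ≤ _ := by gcongr
  exact ⟨⟨n2.2 h1, h3.trans hsm⟩, h3⟩

/-- the vector equation of the angle, over the picture -/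
theorem vecODE (P : PicG L V) : Vale.Agent.P207.N4.H517.VecODE P.S.I P.S.M.U := by
  obtain ⟨K₀, hK₀⟩ := Vale.Agent.P207.N4.H517.U_norm P.S.M
  intro ε hε
  exact Vale.Agent.P207.N4.H734.AngV.ode (cov_of P.Cn) P.Cn.Gam_symm P.S.X.E_smul P.S.M.U_smul
    hK₀ hε

theorem clkOk (P : Pic L V) : Clock.Ok L P.Ra.c P.Ra.c₀ P.Ra.c₁ :=
  ⟨P.Ra.c_cont, P.Ra.c_smul, P.Ra.c_rot, P.Ra.c_flip, P.Ra.c₀_pos, P.Ra.c_lo, P.Ra.c_hi⟩

theorem tlR (P : PicG L V) : TlR P :=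
  Vale.Agent.P207.N4.H106.AngC.tl_rate_clk P.S.M (cov_of P.Cn) (vecODE P) (clkOk P.toPic)
    P.Ra.a₀_pos P.Ra.lo P.Ra.hi P.Ra.T_pos P.Ra.a_pos.le (P.Ra.a_pos.le.trans P.Ra.a_le_b)
    P.Ra.sl_pos (fun x v => (P.Ra.rate _ le_rfl x v).1) (fun x v => (P.Ra.rate _ le_rfl x v).2)

theorem tlB (P : PicG L V) : TlB P :=
  Vale.Agent.P207.N4.H106.AngC.tl_back_clk P.S.M (cov_of P.Cn) (vecODE P) (clkOk P.toPic) P.Ra.hi
    P.Ra.T_pos (P.Ra.a_pos.le.trans P.Ra.a_le_b) P.Ra.sl_pos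
    (fun x v => (P.Ra.rate _ le_rfl x v).1) (fun x v => (P.Ra.rate _ le_rfl x v).2)

/-- **the rate of the angle, forward** (`AngR` of 469) -/
theorem ang_r (P : PicG L V) : ∃ C, 1 ≤ C ∧ ∀ x ξ, 0 < P.Bu.nu x ξ 0 → ∀ t, 0 ≤ t →
    0 < P.Bu.nu (L.φ t x) ξ 0 ∧
    ‖P.gr (L.φ t x) ξ 0‖ ≤ C * Real.exp (-(P.Ra.a * P.sg t x)) * ‖P.gr x ξ 0‖ ∧
    ‖P.gr x ξ 0‖ ≤ C * Real.exp (P.Ra.b * P.sg t x) * ‖P.gr (L.φ t x) ξ 0‖ :=
  ang_r_of P (tlR P)

/-- **the rate of the angle, backward** (`AngB` of 790) -/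
theorem ang_b (P : PicG L V) (ε₀ : ℝ) : ∃ C, 1 ≤ C ∧ ∀ x ξ s, 0 ≤ s → P.Nr ε₀ x ξ →
    C * Real.exp (P.Ra.b * P.sg s (L.φ (-s) x)) * ‖P.gr x ξ 0‖ ≤ ε₀ →
    P.Nr ε₀ (L.φ (-s) x) ξ ∧
      ‖P.gr (L.φ (-s) x) ξ 0‖ ≤ C * Real.exp (P.Ra.b * P.sg s (L.φ (-s) x)) * ‖P.gr x ξ 0‖ :=
  ang_b_of P (tlB P) ε₀

end pic

end Vale.Agent.P207.N4.Y.H832
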